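import Vale.Agent.P268.Div

namespace Vale.Agent.Results.P268.Divides

open Vale.Agent.P268

theorem result (N : ℕ) (φ : OpenPartialHomeomorph (Fin N → ℂ) (Fin N → ℂ))
    (f g : (Fin N → ℂ) → ℂ) (m n : ℕ) (h0 : 0 ∈ φ.source) (hφ0 : φ 0 = 0)
    (hf : AnalyticOnNhd ℂ f φ.source) (hg : AnalyticOnNhd ℂ g φ.target) (hf0 : f 0 = 0)
    (sf : GenSmooth f φ.source) (sg : GenSmooth g φ.target)
    (hV : φ '' ({x | f x = 0} ∩ φ.source) = {y | g y = 0} ∩ φ.target)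
    (hm : IsOrd f m) (hn : IsOrd g n) :
    (∀ v w, OffCone f m v → OffCone g n w → TangentLine φ v w → n ∣ m) ∧
    (QS φ φ.source → (HypCone g n → n ∣ m) ∧ (HypCone f m → m ∣ n) ∧
      (HypCone f m → HypCone g n → m = n)) ∧
    ∀ α : ℝ, 0 < α → α ≤ 1 → BiHolder φ φ.source α →
      (PowCone g n → (n : ℝ) < α ^ 2 * (n + 1) → n ∣ m) ∧
      (PowCone f m → (m : ℝ) < α ^ 2 * (m + 1) → m ∣ n) ∧
      (PowCone f m → PowCone g n → (m : ℝ) < α ^ 2 * (m + 1) → (n : ℝ) < α ^ 2 * (n + 1) →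
        m = n) := by
  have hV1 : ∀ x ∈ φ.source, f x = 0 ↔ g (φ x) = 0 := by
    intro x hx
    constructor
    · intro h
      have : φ x ∈ {y | g y = 0} ∩ φ.target := hV ▸ ⟨x, ⟨h, hx⟩, rfl⟩
      exact this.1
    · intro h
      have : φ x ∈ φ '' ({x | f x = 0} ∩ φ.source) := hV ▸ ⟨h, φ.map_source hx⟩
      obtain ⟨x', hx', e⟩ := this
      rw [← φ.injOn hx'.2 hx e]
      exact hx'.1
  have h0' : (0 : Fin N → ℂ) ∈ φ.target := hφ0 ▸ φ.map_source h0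
  have hs0 : φ.symm 0 = 0 := by
    have := φ.left_inv h0
    rwa [hφ0] at this
  have hg0 : g 0 = 0 := hφ0 ▸ (hV1 0 h0).mp hf0
  have hV2 : ∀ y ∈ φ.symm.source, g y = 0 ↔ f (φ.symm y) = 0 := fun y hy => by
    have := hV1 _ (φ.map_target hy)
    rw [φ.right_inv hy] at this
    exact this.symm
  obtain ⟨v, hv⟩ := hm.2
  obtain ⟨w, hw⟩ := hn.2
  refine ⟨fun v w hv hw ht => dvd_of_cone φ h0 hφ0 hf hg hf0 hV1 sf sg hm.1 hn.1 hv
    (Or.inl ⟨w, hw, ht⟩), fun hq => ?_, fun α hα hα1 ⟨H, hH, hh⟩ => ?_⟩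
  · obtain ⟨q1, q2⟩ := wq_of_qs φ h0 hφ0 hq
    have a : HypCone g n → n ∣ m := fun h2 => dvd_of_cone φ h0 hφ0 hf hg hf0 hV1 sf sg hm.1 hn.1
      hv (Or.inr (inCone_of_wq φ h0 hφ0 hf hg hf0 hV1 hm.1 hn.1 hv h2 q1))
    have b : HypCone f m → m ∣ n := fun h1 =>
      dvd_of_cone φ.symm h0' hs0 hg hf hg0 hV2 sg sf hn.1 hm.1 hw
        (Or.inr (inCone_of_wq φ.symm h0' hs0 hg hf hg0 hV2 hn.1 hm.1 hw h1 q2))
    exact ⟨a, b, fun h1 h2 => Nat.dvd_antisymm (b h1) (a h2)⟩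
  · have hβ : 0 < α ^ 2 := by positivity
    have hβ1 : α ^ 2 ≤ 1 := pow_le_one₀ hα.le hα1
    have a : PowCone g n → (n : ℝ) < α ^ 2 * (n + 1) → n ∣ m := fun hc h =>
      hold_dvd φ h0 hφ0 hf hg hf0 hV1 sf sg hm.1 hn.1 hv hc hβ hβ1 h
        (hq_of_holder h0 hφ0 hα hH hh)
    have b : PowCone f m → (m : ℝ) < α ^ 2 * (m + 1) → m ∣ n := fun hc h =>
      hold_dvd φ.symm h0' hs0 hg hf hg0 hV2 sg sf hn.1 hm.1 hw hc hβ hβ1 h
        (hq_of_holder h0' hs0 hα hH fun x hx y hy => by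
          have := hh _ (φ.map_target hx) _ (φ.map_target hy)
          rw [φ.right_inv hx, φ.right_inv hy] at this
          exact this.symm)
    exact ⟨a, b, fun h1 h2 h3 h4 => Nat.dvd_antisymm (b h1 h3) (a h2 h4)⟩

end Vale.Agent.Results.P268.Divides
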