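import Vale.Agent.P268.Fin

namespace Vale.Agent.Results.P268.Line

open Vale.Agent.P268

theorem result (N : ℕ) (φ : OpenPartialHomeomorph (Fin N → ℂ) (Fin N → ℂ))
    (f g : (Fin N → ℂ) → ℂ) (m n : ℕ) (h0 : 0 ∈ φ.source) (hφ0 : φ 0 = 0)
    (hf : AnalyticOnNhd ℂ f φ.source) (hg : AnalyticOnNhd ℂ g φ.target) (hf0 : f 0 = 0)
    (sf : GenSmooth f φ.source) (sg : GenSmooth g φ.target)
    (hV : φ '' ({x | f x = 0} ∩ φ.source) = {y | g y = 0} ∩ φ.target)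
    (hm : IsMult f m) (hn : IsMult g n) :
    (GoodLine φ f m g n → n ≤ m) ∧
    (GoodLine φ f m g n → GoodLine φ.symm g n f m → m = n) := by
  have hV1 : ∀ x ∈ φ.source, f x = 0 ↔ g (φ x) = 0 := by
    intro x hx
    constructor
    · intro h
      have : φ x ∈ {y | g y = 0} ∩ φ.target := hV ▸ ⟨x, ⟨h, hx⟩, rfl⟩
      exact this.1
    · intro h
      have : φ x ∈ φ '' ({x | f x = 0} ∩ φ.source) := hV ▸ ⟨h, φ.map_source hx⟩
      obtain ⟨x', hx', e⟩ := this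
      rw [← φ.injOn hx'.2 hx e]
      exact hx'.1
  have h0' : (0 : Fin N → ℂ) ∈ φ.target := hφ0 ▸ φ.map_source h0
  have hs0 : φ.symm 0 = 0 := by
    have := φ.left_inv h0
    rwa [hφ0] at this
  have a := le_of_goodLine φ h0 hφ0 hf hg hf0 hV1 sf sg hm.1 hn.1
  refine ⟨a, fun h1 h2 => le_antisymm ?_ (a h1)⟩
  refine le_of_goodLine φ.symm h0' hs0 hg hf (hφ0 ▸ (hV1 0 h0).mp hf0) (fun y hy => ?_) sg sf
    hn.1 hm.1 h2
  have := hV1 _ (φ.map_target hy)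
  rw [φ.right_inv hy] at this
  exact this.symm

end Vale.Agent.Results.P268.Line
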